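import Mathlib

/-!
P315, one-scale track (OT-9): the regime of the parameters.

`lg N = Nat.log 2 (N + 2)`, `ll N = Nat.log 2 (lg N) + 1` (so `2 ^ (ll N - 1) ≤ lg N < 2 ^ ll N`),
`bra A N = 2 ^ (A * ll N)` the branching, `lvl g A N = lg N / (g * (A * ll N))` the number of
levels, `rws g A N = bra A N ^ lvl g A N` the number of rows (`rws ^ g ≤ N + 2`).
-/

set_option autoImplicit false

namespace Vale.Agent.P315.H738

open Filter Topology

def lg (N : ℕ) : ℕ := Nat.log 2 (N + 2)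

def ll (N : ℕ) : ℕ := Nat.log 2 (lg N) + 1

def bra (A N : ℕ) : ℕ := 2 ^ (A * ll N)

def lvl (g A N : ℕ) : ℕ := lg N / (g * (A * ll N))

def rws (g A N : ℕ) : ℕ := bra A N ^ lvl g A N

theorem one_le_lg (N : ℕ) : 1 ≤ lg N := by
  unfold lg
  exact Nat.log_pos (by norm_num) (by omega)

theorem one_le_ll (N : ℕ) : 1 ≤ ll N := Nat.succ_le_succ (Nat.zero_le _)

theorem two_pow_lg_le (N : ℕ) : 2 ^ lg N ≤ N + 2 := Nat.pow_log_le_self 2 (by omega)

theorem lt_two_pow_lg (N : ℕ) : N + 2 < 2 ^ (lg N + 1) :=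
  Nat.lt_pow_succ_log_self (by norm_num) _

theorem lg_lt (N : ℕ) : lg N < 2 ^ ll N := Nat.lt_pow_succ_log_self (by norm_num) _

theorem pow_ll_le (N : ℕ) : 2 ^ ll N ≤ 2 * lg N := by
  unfold ll
  rw [pow_succ, mul_comm]
  exact Nat.mul_le_mul_left _ (Nat.pow_log_le_self 2 (by have := one_le_lg N; omega))

theorem ll_le_lg (N : ℕ) : ll N ≤ lg N := by
  have h1 : ll N - 1 < 2 ^ (ll N - 1) := Nat.lt_two_pow_self
  have h2 : 2 ^ (ll N - 1) ≤ lg N := by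
    unfold ll
    rw [Nat.add_sub_cancel]
    exact Nat.pow_log_le_self 2 (by have := one_le_lg N; omega)
  have h3 := one_le_ll N
  omega

theorem ll_lt (N : ℕ) : ll N < 2 ^ ll N := Nat.lt_two_pow_self

theorem lg_le (N : ℕ) : lg N ≤ N + 1 := by
  have h1 : lg N < 2 ^ lg N := Nat.lt_two_pow_self
  have h2 := two_pow_lg_le N
  omega

/-! ### The regime -/

theorem ev_lg (B : ℕ) : ∃ N0, ∀ N, N0 ≤ N → B ≤ lg N :=
  ⟨2 ^ B, fun N hN => Nat.le_log_of_pow_le (by norm_num) (by omega)⟩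

theorem ev_ll (B : ℕ) : ∃ N0, ∀ N, N0 ≤ N → B ≤ ll N := by
  obtain ⟨N0, h⟩ := ev_lg (2 ^ B)
  refine ⟨N0, fun N hN => ?_⟩
  have := Nat.le_log_of_pow_le (b := 2) (by norm_num) (h N hN)
  unfold ll
  omega

/-- polynomials against `2 ^ x` -/
theorem ev_pow (C r : ℕ) : ∃ B, ∀ x, B ≤ x → C * (x + 1) ^ r ≤ 2 ^ x := by
  have h1 : Tendsto (fun x : ℕ => ((x : ℝ) ^ r / 2 ^ x)) atTop (𝓝 0) :=
    tendsto_pow_const_div_const_pow_of_one_lt r (by norm_num)
  have h2 := h1.comp (tendsto_add_atTop_nat 1)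
  have h3 : ∀ᶠ x : ℕ in atTop, ((fun x : ℕ => ((x : ℝ) ^ r / 2 ^ x)) ∘ fun a => a + 1) x <
      1 / (2 * (C : ℝ) + 1) := h2.eventually (gt_mem_nhds (by positivity))
  obtain ⟨B, hB⟩ := h3.exists_forall_of_atTop
  refine ⟨B, fun x hx => ?_⟩
  have h4 := hB x hx
  simp only [Function.comp] at h4
  rw [div_lt_div_iff₀ (by positivity) (by positivity), one_mul] at h4
  have h5 : (C : ℝ) * ((x : ℝ) + 1) ^ r ≤ 2 ^ x := by
    have h6 : (0 : ℝ) ≤ ((x : ℝ) + 1) ^ r := by positivity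
    have h7 : (((x + 1 : ℕ) : ℝ)) ^ r * (2 * (C : ℝ) + 1) < 2 ^ (x + 1) := h4
    rw [pow_succ] at h7
    push_cast at h7
    nlinarith
  exact_mod_cast h5

/-- powers of `ll` against `lg` -/
theorem ev_main (C r : ℕ) : ∃ N0, ∀ N, N0 ≤ N → C * (ll N + 1) ^ r ≤ lg N := by
  obtain ⟨B, hB⟩ := ev_pow (2 * C) r
  obtain ⟨N0, h⟩ := ev_ll B
  refine ⟨N0, fun N hN => ?_⟩
  have h1 := hB _ (h N hN)
  have h2 := pow_ll_le N
  have h3 : 2 * C * (ll N + 1) ^ r = 2 * (C * (ll N + 1) ^ r) := by ring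
  omega

/-- lower bound for the number of levels -/
theorem lvl_ge (g A N : ℕ) (hg : 1 ≤ g) (hA : 1 ≤ A) :
    lg N < (lvl g A N + 1) * (g * (A * ll N)) := by
  have h : 0 < g * (A * ll N) := by
    have := one_le_ll N
    positivity
  unfold lvl
  rw [mul_comm]
  exact Nat.lt_mul_div_succ _ h

theorem lvl_mul_le (g A N : ℕ) : lvl g A N * (g * (A * ll N)) ≤ lg N := Nat.div_mul_le_self _ _

theorem lvl_le (g A N : ℕ) : lvl g A N ≤ lg N :=
  Nat.div_le_self _ _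

/-- powers of `ll` against the number of levels -/
theorem ev_lvl (g A C r : ℕ) (hg : 1 ≤ g) (hA : 1 ≤ A) :
    ∃ N0, ∀ N, N0 ≤ N → C * (ll N + 1) ^ r ≤ lvl g A N := by
  obtain ⟨N0, h⟩ := ev_main ((C + 1) * (g * A)) (r + 1)
  refine ⟨N0, fun N hN => ?_⟩
  have h1 := h N hN
  have h2 := lvl_ge g A N hg hA
  by_contra hc
  have h3 : lvl g A N + 1 ≤ C * (ll N + 1) ^ r := by omega
  have h4 : (lvl g A N + 1) * (g * (A * ll N)) ≤ C * (ll N + 1) ^ r * (g * (A * ll N)) :=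
    Nat.mul_le_mul_right _ h3
  have h5 : C * (ll N + 1) ^ r * (g * (A * ll N)) ≤ (C + 1) * (g * A) * (ll N + 1) ^ (r + 1) := by
    calc C * (ll N + 1) ^ r * (g * (A * ll N)) = C * (g * A) * ((ll N + 1) ^ r * ll N) := by ring
      _ ≤ (C + 1) * (g * A) * ((ll N + 1) ^ r * (ll N + 1)) := by
          apply Nat.mul_le_mul (Nat.mul_le_mul_right _ (by omega))
          exact Nat.mul_le_mul_left _ (by omega)
      _ = _ := by rw [pow_succ]
  omega

/-- number of rows: `K ^ g ≤ 2 ^ lg N ≤ N + 2` -/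
theorem rws_eq (g A N : ℕ) : rws g A N = 2 ^ (A * ll N * lvl g A N) := by
  unfold rws bra
  rw [← pow_mul]

theorem rws_pow_le (g A N : ℕ) : rws g A N ^ g ≤ N + 2 := by
  rw [rws_eq, ← pow_mul]
  refine le_trans (Nat.pow_le_pow_right (by norm_num) ?_) (two_pow_lg_le N)
  calc A * ll N * lvl g A N * g = lvl g A N * (g * (A * ll N)) := by ring
    _ ≤ lg N := lvl_mul_le g A N

theorem one_le_rws (g A N : ℕ) : 1 ≤ rws g A N := by
  rw [rws_eq]; exact Nat.one_le_two_pow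

theorem rws_le (g A N : ℕ) (hg : 1 ≤ g) : rws g A N ≤ N + 2 :=
  (Nat.le_self_pow (by omega) _).trans (rws_pow_le g A N)

/-- powers of `lg` times constants against the branching -/
theorem ev_bra (A C r s : ℕ) (hA : r + 1 ≤ A) :
    ∃ N0, ∀ N, N0 ≤ N → C * lg N ^ r * (ll N + 1) ^ s ≤ bra A N := by
  obtain ⟨B, hB⟩ := ev_pow C s
  obtain ⟨N0, h⟩ := ev_ll B
  refine ⟨N0, fun N hN => ?_⟩
  have h1 := hB _ (h N hN)
  calc C * lg N ^ r * (ll N + 1) ^ s = lg N ^ r * (C * (ll N + 1) ^ s) := by ring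
    _ ≤ (2 ^ ll N) ^ r * 2 ^ ll N :=
        Nat.mul_le_mul (Nat.pow_le_pow_left (lg_lt N).le r) h1
    _ = 2 ^ ((r + 1) * ll N) := by rw [← pow_mul, ← pow_add]; congr 1; ring
    _ ≤ bra A N := Nat.pow_le_pow_right (by norm_num) (Nat.mul_le_mul_right _ hA)

/-! ### The final exponent -/

theorem lg_real_le (N : ℕ) : (lg N : ℝ) * Real.log 2 ≤ Real.log ((N : ℝ) + 16) := by
  have h1 : ((2 : ℝ) ^ lg N) ≤ (N : ℝ) + 16 := by
    have : ((2 ^ lg N : ℕ) : ℝ) ≤ ((N + 2 : ℕ) : ℝ) := by exact_mod_cast two_pow_lg_le N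
    push_cast at this
    linarith
  rw [← Real.log_pow]
  exact Real.log_le_log (by positivity) h1

theorem le_lg_real (N : ℕ) : Real.log ((N : ℝ) + 16) ≤ ((lg N : ℝ) + 4) * Real.log 2 := by
  have h1 : (N : ℝ) + 16 ≤ (2 : ℝ) ^ (lg N + 4) := by
    have h2 : ((N + 2 : ℕ) : ℝ) < ((2 ^ (lg N + 1) : ℕ) : ℝ) := by
      exact_mod_cast lt_two_pow_lg N
    push_cast at h2
    have h3 : (2 : ℝ) ^ (lg N + 4) = 8 * 2 ^ (lg N + 1) := by ring
    have h4 : (0 : ℝ) ≤ N := Nat.cast_nonneg N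
    rw [h3]
    linarith
  calc Real.log ((N : ℝ) + 16) ≤ Real.log ((2 : ℝ) ^ (lg N + 4)) :=
        Real.log_le_log (by positivity) h1
    _ = _ := by rw [Real.log_pow]; push_cast; ring

theorem log_N_ge (N : ℕ) : 4 * Real.log 2 ≤ Real.log ((N : ℝ) + 16) := by
  have h1 : Real.log ((2 : ℝ) ^ 4) ≤ Real.log ((N : ℝ) + 16) := by
    apply Real.log_le_log (by positivity)
    have h4 : (0 : ℝ) ≤ N := Nat.cast_nonneg N
    norm_num
  rw [Real.log_pow] at h1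
  exact_mod_cast h1

theorem loglog_ge (N : ℕ) : 1 ≤ Real.log (Real.log ((N : ℝ) + 16)) := by
  have h1 := log_N_ge N
  have h2 : Real.exp 1 ≤ Real.log ((N : ℝ) + 16) := by
    have h3 := Real.exp_one_lt_d9
    have h4 := Real.log_two_gt_d9
    linarith
  rw [← Real.log_exp 1]
  exact Real.log_le_log (Real.exp_pos 1) h2

theorem ll_real_le (N : ℕ) : (ll N : ℝ) ≤ 4 * Real.log (Real.log ((N : ℝ) + 16)) := by
  set l1 := Real.log ((N : ℝ) + 16) with hl1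
  have h0 := loglog_ge N
  have h1 := log_N_ge N
  have hl2 := Real.log_two_gt_d9
  have hl2' := Real.log_two_lt_d9
  have hl1pos : 0 < l1 := by rw [hl1]; linarith
  -- 2 ^ (ll - 1) ≤ lg ≤ l1 / log 2 ≤ 2 * l1
  have h2 : (2 : ℝ) ^ ll N ≤ 2 * lg N := by exact_mod_cast pow_ll_le N
  have h3 := lg_real_le N
  have h4 : (2 : ℝ) ^ ll N ≤ 3 * l1 := by
    have : (lg N : ℝ) ≤ (3 / 2) * l1 := by
      have h5 : (0 : ℝ) ≤ lg N := Nat.cast_nonneg _
      nlinarith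
    linarith
  have h5 : (ll N : ℝ) * Real.log 2 ≤ Real.log 3 + Real.log l1 := by
    rw [← Real.log_pow, ← Real.log_mul (by norm_num) hl1pos.ne']
    exact Real.log_le_log (by positivity) h4
  have h6 : Real.log 3 ≤ 2 * Real.log 2 := by
    have : Real.log 3 ≤ Real.log ((2 : ℝ) ^ 2) := Real.log_le_log (by norm_num) (by norm_num)
    rw [Real.log_pow] at this
    exact_mod_cast this
  have h7 : 0 ≤ (ll N : ℝ) := Nat.cast_nonneg _
  by_contra hc
  rw [not_le] at hc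
  have h8 : 4 * Real.log l1 * Real.log 2 < (ll N : ℝ) * Real.log 2 :=
    mul_lt_mul_of_pos_right hc (by linarith)
  nlinarith

theorem final_exp (g A C D s : ℕ) (hg : 1 ≤ g) (hA : 1 ≤ A) (hC : 1 ≤ C) :
    ∃ c : ℝ, 0 < c ∧ ∃ N0 : ℕ, ∀ N : ℕ, N0 ≤ N →
      (D : ℝ) * (lg N : ℝ) ^ s / 2 ^ (lvl g A N / (C * (ll N) ^ 2)) ≤
        2 * Real.exp (-(c * Real.log ((N : ℝ) + 16) /
          Real.log (Real.log ((N : ℝ) + 16)) ^ 3)) := by
  obtain ⟨N1, hN1⟩ := ev_ll D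
  obtain ⟨N2, hN2⟩ := ev_lvl g A (C * (2 * (s + 1))) 3 hg hA
  obtain ⟨N3, hN3⟩ := ev_lg 8
  have hl2 : 0 < Real.log 2 := Real.log_pos (by norm_num)
  have hl2' := Real.log_two_lt_d9
  have hl2'' := Real.log_two_gt_d9
  refine ⟨Real.log 2 / (256 * (g * A * C)), ?_, max N1 (max N2 N3), fun N hN => ?_⟩
  · have : (0 : ℝ) < g := by exact_mod_cast hg
    have : (0 : ℝ) < A := by exact_mod_cast hA
    have : (0 : ℝ) < C := by exact_mod_cast hC
    positivity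
  have a1 := hN1 N ((le_max_left _ _).trans hN)
  have a2 := hN2 N ((le_max_left _ _).trans ((le_max_right _ _).trans hN))
  have a3 := hN3 N ((le_max_right _ _).trans ((le_max_right _ _).trans hN))
  set b := ll N with hb
  set L := lg N with hL
  set n := lvl g A N with hn
  set E := n / (C * b ^ 2) with hE
  have hb1 : 1 ≤ b := one_le_ll N
  have hCb : 0 < C * b ^ 2 := by positivity
  have e1 : n < (E + 1) * (C * b ^ 2) := by
    rw [hE, mul_comm]; exact Nat.lt_mul_div_succ _ hCb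
  have e2 : L < (n + 1) * (g * (A * b)) := lvl_ge g A N hg hA
  -- `2 * ((s + 1) * b) ≤ E`
  have e3 : 2 * ((s + 1) * b) ≤ E := by
    rw [hE, Nat.le_div_iff_mul_le hCb]
    calc 2 * ((s + 1) * b) * (C * b ^ 2) = C * (2 * (s + 1)) * b ^ 3 := by ring
      _ ≤ C * (2 * (s + 1)) * (b + 1) ^ 3 :=
          Nat.mul_le_mul_left _ (Nat.pow_le_pow_left (by omega) 3)
      _ ≤ n := a2
  -- `D * L ^ s ≤ 2 ^ ((s + 1) * b)`
  have e4 : D * L ^ s ≤ 2 ^ ((s + 1) * b) := by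
    calc D * L ^ s ≤ 2 ^ b * (2 ^ b) ^ s := by
          apply Nat.mul_le_mul
          · exact (a1.trans (Nat.lt_two_pow_self (n := b)).le)
          · exact Nat.pow_le_pow_left (lg_lt N).le s
      _ = 2 ^ ((s + 1) * b) := by rw [← pow_mul, ← pow_add]; congr 1; ring
  have e5 : (D : ℝ) * (L : ℝ) ^ s / 2 ^ E ≤ Real.exp (-(Real.log 2 * ((E : ℝ) / 2))) := by
    have f1 : (D : ℝ) * (L : ℝ) ^ s ≤ 2 ^ ((s + 1) * b) := by exact_mod_cast e4
    have f2 : (2 : ℝ) ^ ((s + 1) * b) ≤ Real.exp (Real.log 2 * ((E : ℝ) / 2)) := by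
      rw [← Real.exp_log (show (0 : ℝ) < 2 ^ ((s + 1) * b) by positivity), Real.log_pow]
      apply Real.exp_le_exp.2
      have : (2 : ℝ) * (((s + 1) * b : ℕ) : ℝ) ≤ E := by exact_mod_cast e3
      nlinarith
    have f3 : (2 : ℝ) ^ E = Real.exp (Real.log 2 * (E : ℝ)) := by
      rw [mul_comm, Real.exp_nat_mul, Real.exp_log (by norm_num)]
    rw [div_le_iff₀ (by positivity), f3, ← Real.exp_add]
    refine f1.trans (f2.trans (Real.exp_le_exp.2 ?_))
    ring_nf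
    rfl
  refine e5.trans ?_
  suffices hs : -(Real.log 2 * ((E : ℝ) / 2)) ≤ Real.log 2 +
      -(Real.log 2 / (256 * (g * A * C)) * Real.log ((N : ℝ) + 16) /
        Real.log (Real.log ((N : ℝ) + 16)) ^ 3) by
    have h := Real.exp_le_exp.2 hs
    rwa [Real.exp_add, Real.exp_log (by norm_num : (0 : ℝ) < 2)] at h
  set l1 := Real.log ((N : ℝ) + 16) with hl1
  set l2 := Real.log l1 with hl2d
  have g1 : 1 ≤ l2 := loglog_ge N
  have g2 : (b : ℝ) ≤ 4 * l2 := ll_real_le N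
  have g3 : l1 ≤ ((L : ℝ) + 4) * Real.log 2 := le_lg_real N
  have g4 : l1 ≤ 2 * L := by
    have : (8 : ℝ) ≤ L := by exact_mod_cast a3
    nlinarith
  have g5 : (L : ℝ) < ((E : ℝ) + 2) * (g * A * C) * (b : ℝ) ^ 3 := by
    have h1 : L < ((E + 1) * (C * b ^ 2) + 1) * (g * (A * b)) :=
      lt_of_lt_of_le e2 (Nat.mul_le_mul_right _ (by omega))
    have h2 : ((E + 1) * (C * b ^ 2) + 1) * (g * (A * b)) ≤
        ((E + 1) * (C * b ^ 2) + 1 * (C * b ^ 2)) * (g * (A * b)) :=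
      Nat.mul_le_mul_right _ (by omega)
    have h3 : L < (E + 2) * (g * A * C) * b ^ 3 := by
      refine lt_of_lt_of_le h1 (h2.trans (le_of_eq ?_))
      ring
    exact_mod_cast h3
  set G : ℝ := (g : ℝ) * A * C with hG
  have hG1 : 0 < G := by
    have : (0 : ℝ) < g := by exact_mod_cast hg
    have : (0 : ℝ) < A := by exact_mod_cast hA
    have : (0 : ℝ) < C := by exact_mod_cast hC
    positivity
  have hb0 : (0 : ℝ) ≤ b := Nat.cast_nonneg _
  have g6 : (b : ℝ) ^ 3 ≤ (4 * l2) ^ 3 := pow_le_pow_left₀ hb0 g2 3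
  have hE0 : (0 : ℝ) ≤ E := Nat.cast_nonneg _
  have g7 : l1 ≤ 2 * (((E : ℝ) + 2) * G * (64 * l2 ^ 3)) := by
    have : ((E : ℝ) + 2) * G * (b : ℝ) ^ 3 ≤ ((E : ℝ) + 2) * G * (64 * l2 ^ 3) := by
      apply mul_le_mul_of_nonneg_left _ (by positivity)
      calc (b : ℝ) ^ 3 ≤ (4 * l2) ^ 3 := g6
        _ = 64 * l2 ^ 3 := by ring
    linarith
  have hl23 : 0 < l2 ^ 3 := by positivity
  have g8 : Real.log 2 / (256 * G) * l1 / l2 ^ 3 ≤ Real.log 2 * (((E : ℝ) + 2) / 2) := by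
    rw [div_le_iff₀ hl23, div_mul_eq_mul_div, div_le_iff₀ (by positivity)]
    calc Real.log 2 * l1 ≤ Real.log 2 * (2 * (((E : ℝ) + 2) * G * (64 * l2 ^ 3))) :=
          mul_le_mul_of_nonneg_left g7 hl2.le
      _ = Real.log 2 * (((E : ℝ) + 2) / 2) * l2 ^ 3 * (256 * G) := by ring
  have g9 : Real.log 2 * (((E : ℝ) + 2) / 2) = Real.log 2 * ((E : ℝ) / 2) + Real.log 2 := by ring
  linarith

end Vale.Agent.P315.H738
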